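import Mathlib

/-!
# Reflexivity lemmas (row 125, package [F])

* `reflexive_of_equiv_of_reflexive` : reflexivity transfers along a continuous linear equivalence.
* `reflexive_hilbert` : real Hilbert spaces are reflexive.
* `reflexive_of_equiv` (F2) : a space linearly homeomorphic to a real Hilbert space is reflexive.
* `lp_two_dual_repr` : every continuous functional on an `ℓ²`-sum is given by an `ℓ²` family of
  functionals on the summands.
* `reflexive_lp_two'` / `reflexive_lp_two` (F1) : an `ℓ²`-sum of reflexive spaces is reflexive.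
-/

set_option autoImplicit false

open scoped ENNReal NNReal

namespace Crest.Agent.Helper70

section Transfer

/-- Reflexivity transfers along a continuous linear equivalence. -/
theorem reflexive_of_equiv_of_reflexive {X Y : Type*} [NormedAddCommGroup X] [NormedSpace ℝ X]
    [NormedAddCommGroup Y] [NormedSpace ℝ Y] (e : X ≃L[ℝ] Y)
    (hY : Function.Surjective (NormedSpace.inclusionInDoubleDual ℝ Y)) :
    Function.Surjective (NormedSpace.inclusionInDoubleDual ℝ X) := by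
  intro Λ
  let Λ' : StrongDual ℝ (StrongDual ℝ Y) :=
    Λ.comp ((ContinuousLinearMap.compL ℝ X Y ℝ).flip (e : X →L[ℝ] Y))
  obtain ⟨h, hh⟩ := hY Λ'
  refine ⟨e.symm h, ?_⟩
  ext φ
  rw [NormedSpace.dual_def]
  have h2 : ((ContinuousLinearMap.compL ℝ X Y ℝ).flip (e : X →L[ℝ] Y))
      (φ.comp (e.symm : Y →L[ℝ] X)) = φ := by
    ext x
    simp
  have h3 : Λ' (φ.comp (e.symm : Y →L[ℝ] X)) = Λ φ := by
    change Λ (((ContinuousLinearMap.compL ℝ X Y ℝ).flip (e : X →L[ℝ] Y))
      (φ.comp (e.symm : Y →L[ℝ] X))) = Λ φ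
    rw [h2]
  rw [← h3, ← hh, NormedSpace.dual_def]
  simp

/-- A real Hilbert space is reflexive. -/
theorem reflexive_hilbert (H : Type*) [NormedAddCommGroup H] [InnerProductSpace ℝ H]
    [CompleteSpace H] : Function.Surjective (NormedSpace.inclusionInDoubleDual ℝ H) := by
  intro Λ
  let ψ : H →L[ℝ] ℝ := LinearMap.mkContinuous
    { toFun := fun y => Λ (InnerProductSpace.toDual ℝ H y)
      map_add' := by intro a b; simp [map_add]
      map_smul' := by intro c a; simp [map_smul] } ‖Λ‖ (by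
        intro y
        simpa using Λ.le_opNorm (InnerProductSpace.toDual ℝ H y))
  refine ⟨(InnerProductSpace.toDual ℝ H).symm ψ, ?_⟩
  ext φ
  rw [NormedSpace.dual_def]
  obtain ⟨y, rfl⟩ := (InnerProductSpace.toDual ℝ H).surjective φ
  rw [InnerProductSpace.toDual_apply_apply, real_inner_comm, InnerProductSpace.toDual_symm_apply]
  rfl

/-- (F2) A normed space linearly homeomorphic to a real Hilbert space is reflexive. -/
theorem reflexive_of_equiv {X H : Type*} [NormedAddCommGroup X] [NormedSpace ℝ X]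
    [NormedAddCommGroup H] [InnerProductSpace ℝ H] [CompleteSpace H] (e : X ≃L[ℝ] H) :
    Function.Surjective (NormedSpace.inclusionInDoubleDual ℝ X) :=
  reflexive_of_equiv_of_reflexive e (reflexive_hilbert H)

end Transfer

section LpTwo

/-- A continuous functional has a vector of norm at most one on which it is at least half its
norm. -/
theorem exists_half_norming {V : Type*} [NormedAddCommGroup V] [NormedSpace ℝ V]
    (ψ : StrongDual ℝ V) : ∃ y : V, ‖y‖ ≤ 1 ∧ ‖ψ‖ / 2 ≤ ψ y := by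
  by_cases h : ‖ψ‖ = 0
  · exact ⟨0, by simp, by simp [h]⟩
  · have hpos : 0 < ‖ψ‖ := lt_of_le_of_ne (norm_nonneg _) (Ne.symm h)
    obtain ⟨x, hx1, hx2⟩ := ψ.exists_lt_apply_of_lt_opNorm (show ‖ψ‖ / 2 < ‖ψ‖ by linarith)
    rcases le_total 0 (ψ x) with h0 | h0
    · refine ⟨x, hx1.le, ?_⟩
      rw [Real.norm_of_nonneg h0] at hx2
      exact hx2.le
    · refine ⟨-x, by rw [norm_neg]; exact hx1.le, ?_⟩
      rw [Real.norm_of_nonpos h0] at hx2
      rw [map_neg]
      exact hx2.le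

variable {α : Type*} (G : α → Type*) [∀ n, NormedAddCommGroup (G n)] [∀ n, NormedSpace ℝ (G n)]

/-- The coordinate restrictions of a continuous functional on an `ℓ²`-sum form an `ℓ²` family. -/
theorem lp_two_dual_memℓp [DecidableEq α] (φ : StrongDual ℝ (lp G 2)) :
    Memℓp (fun n => φ.comp (lp.singleContinuousLinearMap ℝ G 2 n)) 2 := by
  have h2 : (2 : ℝ≥0∞).toReal = 2 := by simp
  apply memℓp_gen' (C := (2 * ‖φ‖) ^ 2)
  intro s
  rw [h2]
  set ψ : ∀ n, StrongDual ℝ (G n) := fun n => φ.comp (lp.singleContinuousLinearMap ℝ G 2 n)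
    with hψ
  choose y hy1 hy2 using fun n => exists_half_norming (ψ n)
  have hT : ∑ i ∈ s, ‖ψ i‖ ^ (2 : ℝ) = ∑ i ∈ s, ‖ψ i‖ ^ 2 := by
    apply Finset.sum_congr rfl
    intro i _
    exact Real.rpow_two _
  rw [hT]
  set T : ℝ := ∑ i ∈ s, ‖ψ i‖ ^ 2 with hTdef
  have hT0 : 0 ≤ T := Finset.sum_nonneg (fun i _ => by positivity)
  set u : lp G 2 := ∑ i ∈ s, lp.single 2 i (‖ψ i‖ • y i) with hu
  have hunorm : ‖u‖ ^ 2 ≤ T := by
    have h3 := lp.norm_sum_single (p := 2) (E := G) (by simp) (fun i => ‖ψ i‖ • y i) s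
    rw [h2, Real.rpow_two] at h3
    rw [hu, h3, hTdef]
    apply Finset.sum_le_sum
    intro i _
    rw [Real.rpow_two, norm_smul, norm_norm]
    have h4 : ‖ψ i‖ * ‖y i‖ ≤ ‖ψ i‖ := by
      calc ‖ψ i‖ * ‖y i‖ ≤ ‖ψ i‖ * 1 := by gcongr; exact hy1 i
        _ = ‖ψ i‖ := mul_one _
    exact pow_le_pow_left₀ (by positivity) h4 2
  have hφu : T / 2 ≤ φ u := by
    rw [hu, map_sum, hTdef, Finset.sum_div]
    apply Finset.sum_le_sum
    intro i _
    have h5 : φ (lp.single 2 i (‖ψ i‖ • y i)) = ‖ψ i‖ * ψ i (y i) := by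
      rw [lp.single_smul, map_smul, smul_eq_mul]
      rfl
    rw [h5]
    have h6 := hy2 i
    have h7 : 0 ≤ ‖ψ i‖ := norm_nonneg _
    nlinarith
  have hle : φ u ≤ ‖φ‖ * ‖u‖ := (le_abs_self _).trans (φ.le_opNorm u)
  have hφ0 : 0 ≤ ‖φ‖ := norm_nonneg _
  have hu0 : 0 ≤ ‖u‖ := norm_nonneg _
  by_contra hcon
  rw [not_le] at hcon
  have h8 : T / 2 ≤ ‖φ‖ * ‖u‖ := hφu.trans hle
  have h9 : (T / 2) ^ 2 ≤ (‖φ‖ * ‖u‖) ^ 2 := pow_le_pow_left₀ (by linarith) h8 2
  have h10 : (‖φ‖ * ‖u‖) ^ 2 ≤ ‖φ‖ ^ 2 * T := by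
    rw [mul_pow]
    exact mul_le_mul_of_nonneg_left hunorm (by positivity)
  have hTpos : 0 < T := lt_of_le_of_lt (by positivity) hcon
  nlinarith

/-- Every continuous functional on an `ℓ²`-sum is represented by an `ℓ²` family of functionals on
the summands. -/
theorem lp_two_dual_repr (φ : StrongDual ℝ (lp G 2)) :
    ∃ Ψ : lp (fun n => StrongDual ℝ (G n)) 2, ∀ y : lp G 2, φ y = ∑' n, Ψ n (y n) := by
  classical
  refine ⟨⟨fun n => φ.comp (lp.singleContinuousLinearMap ℝ G 2 n), lp_two_dual_memℓp G φ⟩, ?_⟩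
  intro y
  have h1 := lp.hasSum_single (p := 2) (by simp) y
  have h2 := (h1.map φ φ.continuous).tsum_eq
  rw [← h2]
  rfl

/-- An `ℓ²`-sum (over any index type) of reflexive real normed spaces is reflexive. -/
theorem reflexive_lp_two'
    (h : ∀ n, Function.Surjective (NormedSpace.inclusionInDoubleDual ℝ (G n))) :
    Function.Surjective (NormedSpace.inclusionInDoubleDual ℝ (lp G 2)) := by
  intro Λ
  let D : lp (fun n => StrongDual ℝ (G n)) 2 →L[ℝ] StrongDual ℝ (lp G 2) :=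
    lp.dualPairing 2 2 (fun n => ContinuousLinearMap.id ℝ (StrongDual ℝ (G n))) (K := 1)
      (fun n => by simpa using ContinuousLinearMap.norm_id_le)
  have hD : ∀ (Ψ : lp (fun n => StrongDual ℝ (G n)) 2) (y : lp G 2),
      D Ψ y = ∑' n, Ψ n (y n) := fun Ψ y => rfl
  obtain ⟨Ξ, hΞ⟩ := lp_two_dual_repr (fun n => StrongDual ℝ (G n)) (Λ.comp D)
  choose x hx using fun n => h n (Ξ n)
  have hxn : ∀ n, ‖x n‖ = ‖Ξ n‖ := by
    intro n
    rw [← hx n]
    exact ((NormedSpace.inclusionInDoubleDualLi ℝ).norm_map (x n)).symm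
  have hmem : Memℓp x 2 := by
    rw [← memℓp_norm_iff]
    have h1 := memℓp_norm_iff.mpr (lp.memℓp Ξ)
    have h2 : (fun n => ‖x n‖) = (fun n => ‖Ξ n‖) := funext hxn
    rw [h2]
    exact h1
  refine ⟨⟨x, hmem⟩, ?_⟩
  ext φ
  rw [NormedSpace.dual_def]
  obtain ⟨Ψ, hΨ⟩ := lp_two_dual_repr G φ
  have hφ : φ = D Ψ := by
    ext y
    rw [hΨ, hD]
  have h3 := hΞ Ψ
  rw [ContinuousLinearMap.comp_apply] at h3
  rw [hφ, hD, h3]
  apply tsum_congr
  intro n
  rw [← hx n, NormedSpace.dual_def]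

/-- (F1) An `ℓ²`-sum of a sequence of reflexive Banach spaces is reflexive. -/
theorem reflexive_lp_two (G : ℕ → Type) [∀ n, NormedAddCommGroup (G n)]
    [∀ n, NormedSpace ℝ (G n)] [∀ n, CompleteSpace (G n)]
    (h : ∀ n, Function.Surjective (NormedSpace.inclusionInDoubleDual ℝ (G n))) :
    Function.Surjective (NormedSpace.inclusionInDoubleDual ℝ (lp G 2)) :=
  reflexive_lp_two' G h

end LpTwo

end Crest.Agent.Helper70
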